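import Vale.Agent.P079.Dual
import Vale.Agent.P079.Mu
import Vale.Agent.P079.Unconditional
import Vale.Agent.P079.BanachSaks

namespace Vale.Agent.Results.P079.A00_Combined

open Vale.Agent.P079

universe u

theorem result :
    (∀ (X : Type u) [NormedAddCommGroup X] [NormedSpace ℝ X] [CompleteSpace X],
      HasWORTH X →
        HasWeakFPP X ∧ (IsReflexiveSpace X → HasFPP X ∧ HasFPP (StrongDual ℝ X))) ∧
    (∀ (X : Type u) [NormedAddCommGroup X] [NormedSpace ℝ X] [CompleteSpace X] (c : ℝ),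
      1 ≤ c → 2 * c ^ 2 + c < 5 → MuLe c X →
        HasWeakFPP X ∧ (IsReflexiveSpace X → HasFPP X)) ∧
    (∀ (X : Type u) [NormedAddCommGroup X] [NormedSpace ℝ X] [CompleteSpace X],
      (∀ δ > 0, ∃ (Y : Type u) (_ : NormedAddCommGroup Y) (_ : NormedSpace ℝ Y)
        (b : SchauderBasis ℝ Y) (J : X →L[ℝ] Y),
        OneUnconditional b ∧ ∀ x, ‖x‖ ≤ ‖J x‖ ∧ ‖J x‖ ≤ (1 + δ) * ‖x‖) →
        HasWORTH X) ∧
    (∀ (X : Type u) [NormedAddCommGroup X] [NormedSpace ℝ X] [CompleteSpace X],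
      IsReflexiveSpace X → BanachSaks X → ∀ b : SchauderBasis ℝ X,
        SuppressionOneUnconditional b → HasFPP X) := by
  refine ⟨?_, ?_, ?_, ?_⟩
  · intro X _ _ _ hW
    exact ⟨hasWeakFPP_of_worth hW, fun hX =>
      ⟨hasFPP_of_reflexive_worth hX hW, hasFPP_dual_of_reflexive_worth hX hW⟩⟩
  · intro X _ _ _ c hc1 hc hμ
    exact ⟨hasWeakFPP_of_muLe hc1 hc hμ, fun hX => hasFPP_of_reflexive_muLe hX hc1 hc hμ⟩
  · intro X _ _ _ h
    apply hasWORTH_of_embeddings.{u}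
    intro δ hδ
    obtain ⟨Y, i1, i2, b, J, hb, hJ⟩ := h δ hδ
    exact ⟨Y, i1, i2, J, hasWORTH_of_oneUnconditional hb, hJ⟩
  · intro X _ _ _ hX hBS b hS
    exact hasFPP_of_blockAveraging hX b hS (blockAveraging_of_banachSaks hS hBS)

end Vale.Agent.Results.P079.A00_Combined
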