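import Vale.Agent.P079.WorthTop

namespace Vale.Agent.Results.P079.A0_WorthReflexive

open Vale.Agent.P079

theorem result (X : Type*) [NormedAddCommGroup X] [NormedSpace ℝ X] [CompleteSpace X]
    (hX : IsReflexiveSpace X) (hW : HasWORTH X) : HasFPP X :=
  hasFPP_of_reflexive_worth hX hW

end Vale.Agent.Results.P079.A0_WorthReflexive
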