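import Vale.Agent.P079.Dual

namespace Vale.Agent.Results.P079.A1_WorthWeakDual

open Vale.Agent.P079

theorem result (X : Type*) [NormedAddCommGroup X] [NormedSpace ℝ X] [CompleteSpace X]
    (hW : HasWORTH X) :
    HasWeakFPP X ∧ (IsReflexiveSpace X → HasFPP X ∧ HasFPP (StrongDual ℝ X)) :=
  ⟨hasWeakFPP_of_worth hW, fun hX =>
    ⟨hasFPP_of_reflexive_worth hX hW, hasFPP_dual_of_reflexive_worth hX hW⟩⟩

end Vale.Agent.Results.P079.A1_WorthWeakDual
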