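import Vale.Agent.P079.Mu

namespace Vale.Agent.Results.P079.A2_MuCoefficient

open Vale.Agent.P079

theorem result (X : Type*) [NormedAddCommGroup X] [NormedSpace ℝ X] [CompleteSpace X]
    (c : ℝ) (hc1 : 1 ≤ c) (hc : 2 * c ^ 2 + c < 5) (hμ : MuLe c X) :
    HasWeakFPP X ∧ (IsReflexiveSpace X → HasFPP X) :=
  ⟨hasWeakFPP_of_muLe hc1 hc hμ, fun hX => hasFPP_of_reflexive_muLe hX hc1 hc hμ⟩

end Vale.Agent.Results.P079.A2_MuCoefficient
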