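import Vale.Agent.P079.Unconditional

namespace Vale.Agent.Results.P079.A3_AlmostIsoUnconditional

open Vale.Agent.P079

universe u

theorem result (X : Type u) [NormedAddCommGroup X] [NormedSpace ℝ X] [CompleteSpace X]
    (h : ∀ δ > 0, ∃ (Y : Type u) (_ : NormedAddCommGroup Y) (_ : NormedSpace ℝ Y)
      (b : SchauderBasis ℝ Y) (J : X →L[ℝ] Y),
      OneUnconditional b ∧ ∀ x, ‖x‖ ≤ ‖J x‖ ∧ ‖J x‖ ≤ (1 + δ) * ‖x‖) :
    HasWORTH X ∧ HasWeakFPP X ∧ (IsReflexiveSpace X → HasFPP X ∧ HasFPP (StrongDual ℝ X)) := by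
  have hW : HasWORTH X := by
    apply hasWORTH_of_embeddings.{u}
    intro δ hδ
    obtain ⟨Y, i1, i2, b, J, hb, hJ⟩ := h δ hδ
    exact ⟨Y, i1, i2, J, hasWORTH_of_oneUnconditional hb, hJ⟩
  exact ⟨hW, hasWeakFPP_of_worth hW, fun hX =>
    ⟨hasFPP_of_reflexive_worth hX hW, hasFPP_dual_of_reflexive_worth hX hW⟩⟩

end Vale.Agent.Results.P079.A3_AlmostIsoUnconditional
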