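import Vale.Agent.P079.BanachSaks

namespace Vale.Agent.Results.P079.BanachSaksBasis

open Vale.Agent.P079

theorem result (X : Type*) [NormedAddCommGroup X] [NormedSpace ℝ X] [CompleteSpace X]
    (hX : IsReflexiveSpace X) (hBS : BanachSaks X) (b : SchauderBasis ℝ X)
    (hS : SuppressionOneUnconditional b) : HasFPP X :=
  hasFPP_of_blockAveraging hX b hS (blockAveraging_of_banachSaks hS hBS)

end Vale.Agent.Results.P079.BanachSaksBasis
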